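import Vale.Agent.P093Z.Ch

/-! P093Z Bd (TASK). Helper names start with `zbd_`. Compare `cmb_step`, `cmb_bd` in `P093E/Cmb.lean`. Prove `zI_add` etc by induction on `k`. Prove first the statement of `zI_step` for `k` under the assumption that `zI_bd` holds for `k` (all `φ`), then `zI_bd` by induction, then `zI_step`.
Step: with `J ψ = zI k (zP id T ψ)`, `T = T k`, `P i = zP (f k i) (f k (i+1))`: by `zP_zD`, `zN_zD`, `zI (k+1) (zD φ) = ∑ i, (J (zN (φ ∘ map f (i+1))) - J (zN (φ ∘ map f i))) - ∑ i, J (zD (zN (P i φ)))`; telescope; `zN (φ ∘ map (f k N)) = 0` by `zN_inv`, `hN`. With `ψ = zN (P i φ)` (invariant under `T` by `zN_map`), `zP id T (zD ψ) = - zD (zP id T ψ)` and `zI k` of it is `0` by the assumption: `zP id T ψ` vanishes on `Bd` lists of length `m + 2 * k` (`zP_zero`, `bT`, `bf`); for `k' < k` either `T k' = T k` and it is invariant (`zP_map`, `zN_inv`), or `T k'` and its iterates commute with everything and `zN (T k')` passes inside (`zP_map`, `zP_sum`,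 `Finset.sum_comm`, `Function.Commute.iterate_left`). -/

open Filter Topology Set

noncomputable section

namespace Vale.Agent.P093

variable {X K : Type} [CommRing K] {m n N : ℕ} {I₀ : (List X → K) → K} {T : ℕ → X → X}
  {f : ℕ → ℕ → X → X} {Bd : List X → Prop}

theorem zbd_Nadd (N : ℕ) (S : X → X) (φ ψ : List X → K) :
    zN N S (fun w => φ w + ψ w) = fun w => zN N S φ w + zN N S ψ w :=
  funext fun _ => Finset.sum_add_distrib

theorem zbd_Nsub (N : ℕ) (S : X → X) (φ ψ : List X → K) :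
    zN N S (fun w => φ w - ψ w) = fun w => zN N S φ w - zN N S ψ w :=
  funext fun _ => Finset.sum_sub_distrib _ _

theorem zbd_N0 (N : ℕ) (S : X → X) : zN N S (fun _ => (0 : K)) = fun _ => 0 :=
  funext fun _ => Finset.sum_const_zero

theorem zbd_P0 (g g' : X → X) : zP g g' (fun _ => (0 : K)) = fun _ => 0 :=
  funext fun l => zP_zero g g' _ l fun _ _ _ => rfl

theorem zbd_NP (N : ℕ) {S g g' : X → X} (h : ∀ x, S (g x) = g (S x)) (h' : ∀ x, S (g' x) = g' (S x))
    (φ : List X → K) : zN N S (zP g g' φ) = zP g g' (zN N S φ) := by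
  funext l
  refine Eq.trans ?_ (zP_sum (Finset.range N) g g' (fun j w => φ (w.map S^[j])) l).symm
  exact Finset.sum_congr rfl fun j _ => zP_map (Function.Commute.iterate_left h j)
    (Function.Commute.iterate_left h' j) φ l

theorem zbd_NN (N : ℕ) {S S' : X → X} (h : ∀ x, S (S' x) = S' (S x)) (φ : List X → K) :
    zN N S (zN N S' φ) = zN N S' (zN N S φ) := by
  funext l
  simp only [zN, List.map_map]
  rw [Finset.sum_comm]
  refine Finset.sum_congr rfl fun i _ => Finset.sum_congr rfl fun j _ => ?_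
  rw [(Function.Commute.iterate_iterate h j i).comp_eq]

theorem zbd_it (H : ZH m n N I₀ T f Bd) (k j : ℕ) {l : List X} (hl : Bd l) :
    Bd (l.map (T k)^[j]) := by
  induction j with
  | zero => rwa [Function.iterate_zero, List.map_id]
  | succ j ih =>
    refine H.bT k _ _ ih fun z hz => ?_
    obtain ⟨x, hx, rfl⟩ := List.mem_map.1 hz
    exact ⟨_, List.mem_map_of_mem hx, Or.inr (Function.iterate_succ_apply' _ _ _)⟩

theorem zI_add (H : ZH m n N I₀ T f Bd) (k : ℕ) (φ ψ : List X → K) :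
    zI I₀ T f N k (fun w => φ w + ψ w) = zI I₀ T f N k φ + zI I₀ T f N k ψ := by
  induction k generalizing φ ψ with
  | zero => exact H.Iadd φ ψ
  | succ k ih =>
    simp only [zI]
    rw [← Finset.sum_add_distrib]
    refine Finset.sum_congr rfl fun i _ => ?_
    rw [← ih, funext (zP_add _ _ φ ψ), zbd_Nadd, funext (zP_add _ _ _ _)]

theorem zI_zero (H : ZH m n N I₀ T f Bd) (k : ℕ) : zI I₀ T f N k (fun _ => 0) = 0 := by
  have h := zI_add H k (fun _ => 0) fun _ => 0
  simp only [add_zero] at h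
  exact left_eq_add.1 h

theorem zI_sub (H : ZH m n N I₀ T f Bd) (k : ℕ) (φ ψ : List X → K) :
    zI I₀ T f N k (fun w => φ w - ψ w) = zI I₀ T f N k φ - zI I₀ T f N k ψ := by
  rw [eq_sub_iff_add_eq, ← zI_add H]
  simp only [sub_add_cancel]

theorem zbd_step (H : ZH m n N I₀ T f Bd) (k : ℕ) (hk : k < n)
    (ih : ∀ φ : List X → K, (∀ l, l.length = m + 2 * k → Bd l → φ l = 0) →
      (∀ k' < k, ∀ w, zN N (T k') φ w = 0) → zI I₀ T f N k (zD φ) = 0) (φ : List X → K)
    (h1 : ∀ l, l.length = m + 2 * k + 2 → Bd l → φ l = 0)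
    (h2 : ∀ k' < k, T k' = T k ∨ ∀ w, zN N (T k') φ w = 0) :
    zI I₀ T f N (k + 1) (zD φ) = -zI I₀ T f N k (zP id (T k) (zN N (T k) φ)) := by
  have z : ∀ i, zI I₀ T f N k (zP id (T k) (zD (zN N (T k) (zP (f k i) (f k (i + 1)) φ)))) = 0 := by
    intro i
    obtain ⟨ψ, hψ⟩ : ∃ ψ, ψ = zN N (T k) (zP (f k i) (f k (i + 1)) φ) := ⟨_, rfl⟩
    have inv : ∀ w : List X, ψ (w.map (T k)) = ψ w := fun w => by rw [hψ, zN_map (H.hT k)]
    have e : zP id (T k) (zD ψ) = fun l => 0 - zD (zP id (T k) ψ) l := funext fun l => by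
      rw [zP_zD, inv, List.map_id, sub_self]
    rw [← hψ, e, zI_sub H k (fun _ => 0), zI_zero H, zero_sub, neg_eq_zero]
    refine ih _ (fun l hl hb => zP_zero _ _ _ _ fun w hw hz => ?_) fun k' hk' w => ?_
    · rw [hψ]
      refine Finset.sum_eq_zero fun j _ => zP_zero _ _ _ _ fun w' hw' hz' => h1 w' ?_
        (H.bf k i _ w' (zbd_it H k j (H.bT k l w hb hz)) hz')
      rw [hw', List.length_map, hw, hl]
    · by_cases hT : T k' = T k
      · rw [hT]
        refine zN_inv H.N0 (fun w => ?_) w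
        rw [zP_map (f := id) (g := T k) (T := T k) (fun _ => rfl) (fun _ => rfl), funext inv]
      · obtain ⟨c1, c2⟩ := (H.hc k hk k' hk').resolve_left hT
        rw [zbd_NP N (S := T k') (g := id) (fun _ => rfl) c1, hψ, zbd_NN N c1,
          zbd_NP N (c2 i) (c2 (i + 1)),
          funext ((h2 k' hk').resolve_left hT), zbd_P0, zbd_N0, zbd_P0]
  have key : ∀ i, zI I₀ T f N k (zP id (T k) (zN N (T k) (zP (f k i) (f k (i + 1)) (zD φ)))) =
      zI I₀ T f N k (zP id (T k) (zN N (T k) fun w => φ (w.map (f k (i + 1))))) -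
        zI I₀ T f N k (zP id (T k) (zN N (T k) fun w => φ (w.map (f k i)))) := by
    intro i
    rw [funext (zP_zD _ _ φ), zbd_Nsub, zbd_Nsub, funext (zP_sub _ _ _ _), funext (zP_sub _ _ _ _),
      zI_sub H, zI_sub H, funext (zN_zD N _ _), z i, sub_zero]
  simp only [zI, key]
  rw [Finset.sum_range_sub fun i =>
    zI I₀ T f N k (zP id (T k) (zN N (T k) fun w => φ (w.map (f k i))))]
  have e1 : (zN N (T k) fun w => φ (w.map (f k N))) = fun _ => 0 := by
    have : f k N ∘ T k = f k N := funext (H.hN k hk)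
    exact funext (zN_inv H.N0 fun w => by rw [List.map_map, this])
  have e2 : (fun w : List X => φ (w.map (f k 0))) = φ := by
    funext w
    rw [show f k 0 = id from funext (H.h0 k), List.map_id]
  rw [e1, e2, zbd_P0, zI_zero H, zero_sub]

theorem zI_bd (H : ZH m n N I₀ T f Bd) (k : ℕ) (hk : k ≤ n) (φ : List X → K)
    (h1 : ∀ l, l.length = m + 2 * k → Bd l → φ l = 0)
    (h2 : ∀ k' < k, ∀ w, zN N (T k') φ w = 0) : zI I₀ T f N k (zD φ) = 0 := by
  induction k generalizing φ with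
  | zero => exact H.Ibd φ h1
  | succ k ih =>
    rw [zbd_step H k hk (ih (by omega)) φ h1 fun k' hk' => Or.inr (h2 k' (by omega)),
      funext (h2 k (by omega)), zbd_P0, zI_zero H, neg_zero]

theorem zI_step (H : ZH m n N I₀ T f Bd) (k : ℕ) (hk : k < n) (φ : List X → K)
    (h1 : ∀ l, l.length = m + 2 * k + 2 → Bd l → φ l = 0)
    (h2 : ∀ k' < k, T k' = T k ∨ ∀ w, zN N (T k') φ w = 0) :
    zI I₀ T f N (k + 1) (zD φ) = -zI I₀ T f N k (zP id (T k) (zN N (T k) φ)) := by
  exact zbd_step H k hk (zI_bd H k hk.le) φ h1 h2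

end Vale.Agent.P093
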