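import Vale.Agent.P093Z.Cup
import Vale.Agent.P093Z.Bd

/-! P093Z Cmb (TASK). Helper names start with `zcm_`. Compare `bu_comb3` in `P093E/Cmb.lean`. Support: `zI k φ = 0` if `φ` vanishes on `Ge k` (`zP_zero`, `g1`, `g2` iterated, `g3`). With `G = zG (zB s m) κ k` (invariant under all `T k'`, `k' < n`, by `zG_map`): `zI (k+1) (zD (zE (κ k) G)) = - zI k G`. Indeed by `zI_step` (`zE _ G` vanishes on `Bd` lists by `bs`, `zG_zero` for the tail; `zN_inv`) it is `- zI k (zP id T (zN T (zE κ G)))`; `zN T (zE κ G) = zD (zC ρ G)` (`hsum`, `zC_cons`, cases `[]`, `[x]`); `zP id T (zD (zC ρ G)) = G - zD θ` with `θ = zP id T (zC ρ G)` (`zP_zD`, `hρ`, `zG_nil`); `zI k (zD θ) = 0` by `zI_bd`: if `T k' = T k` then `zN T θ = zP id T (zN T (zC ρ G))` (`zP_map` for the iterates, `zP_sum`) and `zN T (zC ρ G) (x :: l) = (∑ j, (ρ x + j)) * G (x :: l) = 0` by `N0`, `N1`; otherwise `θ` is invariant under `T k'`. -/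

open Filter Topology Set

noncomputable section

namespace Vale.Agent.P093

theorem zcm_iter {X K : Type} {T : X → X} {φ : List X → K} (h : ∀ w : List X, φ (w.map T) = φ w)
    (j : ℕ) (w : List X) : φ (w.map T^[j]) = φ w := by
  induction j with
  | zero => rw [Function.iterate_zero, List.map_id]
  | succ j ih => rw [Function.iterate_succ', ← List.map_map, h, ih]

theorem zcm_norm {X K : Type} [CommRing K] {N : ℕ} (N0 : (N : K) = 0)
    (N1 : ∑ j ∈ Finset.range N, (j : K) = 0) {T : X → X} {ρ : X → K} {G : List X → K}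
    (hG : ∀ w : List X, G (w.map T) = G w) (hρ : ∀ x, ρ (T x) = ρ x + 1) (w : List X) :
    zN N T (zP id T (zC ρ G)) w = 0 := by
  have h1 : ∀ (j : ℕ) x, ρ (T^[j] x) = ρ x + j := fun j x => by
    induction j with
    | zero => simp
    | succ j ih => rw [Function.iterate_succ_apply', hρ, ih, Nat.cast_succ, add_assoc]
  have h2 : ∀ j : ℕ, zP id T (zC ρ G) (w.map T^[j]) =
      zP id T (fun v => zC ρ G (v.map T^[j])) w := fun j =>
    zP_map (f := id) (g := T) (T := T^[j]) (fun _ => rfl) (fun x => by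
      rw [← Function.iterate_succ_apply, Function.iterate_succ_apply']) _ _
  simp only [zN, h2]
  rw [← zP_sum]
  refine zP_zero _ _ _ _ fun v _ _ => ?_
  match v with
  | [] => exact Finset.sum_eq_zero fun _ _ => rfl
  | x :: l =>
    have h3 : ∀ j : ℕ, zC ρ G ((x :: l).map T^[j]) = (ρ x + j) * G (x :: l) := fun j => by
      rw [← zcm_iter hG j (x :: l), ← h1]
      rfl
    simp only [h3]
    rw [← Finset.sum_mul, Finset.sum_add_distrib, N1, Finset.sum_const, Finset.card_range,
      nsmul_eq_mul, N0]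
    ring

theorem z_comb {X K : Type} [CommRing K] {m n N : ℕ} {I₀ : (List X → K) → K} {T : ℕ → X → X}
    {f : ℕ → ℕ → X → X} {Bd : List X → Prop} (H : ZH m n N I₀ T f Bd) (s : ℕ → X → K)
    (κ : ℕ → X → X → K) (ρ : ℕ → X → K) (Ge Go : ℕ → List X → Prop)
    (N1 : ∑ j ∈ Finset.range N, (j : K) = 0) (Ione : I₀ (zB s m) ≠ 0)
    (Isupp : ∀ φ, (∀ l, Ge 0 l → φ l = 0) → I₀ φ = 0)
    (bs : ∀ l, Bd l → ∃ i < m, ∀ x ∈ l, ∀ y ∈ l, s i x = s i y)
    (hc : ∀ k < n, ∀ k' < k, T k' = T k ∨ ((∀ x, ρ k (T k' x) = ρ k x) ∧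
      ∀ x y, κ k (T k' x) (T k' y) = κ k x y))
    (hs : ∀ i < m, ∀ k x, s i (T k x) = s i x)
    (hκ : ∀ k < n, ∀ k' < n, ∀ x y z, κ k (T k' y) (T k' z) - κ k (T k' x) (T k' z) +
      κ k (T k' x) (T k' y) = κ k y z - κ k x z + κ k x y)
    (hρ : ∀ k < n, ∀ x, ρ k (T k x) = ρ k x + 1)
    (hsum : ∀ k < n, ∀ x y,
      ∑ j ∈ Finset.range N, κ k ((T k)^[j] x) ((T k)^[j] y) = ρ k y - ρ k x)
    (g1 : ∀ k < n, ∀ l w, Ge k l → w.length = l.length + 1 →
      (∀ z ∈ w, ∃ x ∈ l, z = x ∨ z = T k x) → Go k w)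
    (g2 : ∀ k < n, ∀ l, Go k l → Go k (l.map (T k)))
    (g3 : ∀ k < n, ∀ i < N, ∀ l w, Go k l → w.length = l.length + 1 →
      (∀ z ∈ w, ∃ x ∈ l, z = f k i x ∨ z = f k (i + 1) x) → Ge (k + 1) w) :
    ∃ l, Ge n l ∧ zG (zB s m) κ n l ≠ 0 := by
  have g4 : ∀ k < n, ∀ (j : ℕ) l, Go k l → Go k (l.map (T k)^[j]) := fun k hk j l hl => by
    induction j with
    | zero => rwa [Function.iterate_zero, List.map_id]
    | succ j ih =>
      rw [Function.iterate_succ', ← List.map_map]
      exact g2 k hk _ ih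
  have supp : ∀ k ≤ n, ∀ φ, (∀ l, Ge k l → φ l = 0) → zI I₀ T f N k φ = 0 := by
    intro k
    induction k with
    | zero => exact fun _ φ h => Isupp φ h
    | succ k ih =>
      intro hk φ h
      exact Finset.sum_eq_zero fun i hi => ih (by omega) _ fun l hl => zP_zero _ _ _ _
        fun w hw hz => Finset.sum_eq_zero fun j _ => zP_zero _ _ _ _ fun w' hw' hz' =>
          h w' (g3 k hk i (Finset.mem_range.1 hi) _ w' (g4 k hk j w (g1 k hk l w hl hw hz)) hw' hz')
  have one : ∀ k ≤ n, zI I₀ T f N k (zG (zB s m) κ k) ≠ 0 := by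
    intro k
    induction k with
    | zero => exact fun _ => Ione
    | succ k ih =>
      intro hk
      have ih' := ih (by omega)
      have hz := zG_zero s m κ k
      have hD := zG_zD s m κ k
      have h0 := zG_nil s m κ k
      have hG : ∀ k' < n, ∀ l : List X,
          zG (zB s m) κ k (l.map (T k')) = zG (zB s m) κ k l := fun k' hk' l =>
        zG_map (fun i hi => hs i hi k') (fun j hj => hκ j (by omega) k' hk') l
      rw [zG]
      generalize zG (zB s m) κ k = G at ih' hz hD h0 hG ⊢
      have h1 : zN N (T k) (zE (κ k) G) = zD (zC (ρ k) G) := by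
        funext l
        match l with
        | [] => exact Finset.sum_eq_zero fun _ _ => rfl
        | [x] => exact (Finset.sum_eq_zero fun _ _ => rfl).trans (sub_zero (0 : K)).symm
        | x :: y :: l =>
          rw [zC_cons _ hD, ← hsum k hk, Finset.sum_mul]
          refine Finset.sum_congr rfl fun j _ => ?_
          rw [← zcm_iter (hG k hk) j (y :: l)]
          rfl
      have h2 : zP id (T k) (zD (zC (ρ k) G)) = fun l => G l - zD (zP id (T k) (zC (ρ k) G)) l := by
        funext l
        rw [zP_zD, List.map_id]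
        match l with
        | [] => rw [h0, List.map_nil, sub_self]
        | x :: l =>
          have h3 := hG k hk (x :: l)
          rw [List.map_cons] at h3 ⊢
          rw [zC, zC, h3, hρ k hk]
          ring
      rw [zI_step H k hk, h1, h2, zI_sub H, zI_bd H k (by omega), sub_zero]
      · exact neg_ne_zero.2 ih'
      · refine fun l hl hb => zP_zero _ _ _ _ fun w hw hw' => ?_
        have h3 := hz w (hl ▸ hw) (Or.inl (bs w (H.bT k l w hb hw')))
        match w, h3 with
        | [], _ => rfl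
        | x :: w, h3 => rw [zC, h3, mul_zero]
      · intro k' hk' w
        by_cases e : T k' = T k
        · rw [e]
          exact zcm_norm H.N0 N1 (hG k hk) (hρ k hk) w
        · refine zN_inv H.N0 (fun v => ?_) w
          rw [zP_map (f := id) (T := T k') (fun _ => rfl) ((H.hc k hk k' hk').resolve_left e).1]
          refine congrArg (fun φ => zP id (T k) φ v) (funext fun v => ?_)
          match v with
          | [] => rfl
          | x :: l =>
            have h3 := hG k' (by omega) (x :: l)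
            rw [List.map_cons] at h3 ⊢
            rw [zC, zC, h3, ((hc k hk k' hk').resolve_left e).1]
      · intro l hl hb
        obtain ⟨i, hi, h3⟩ := bs l hb
        match l, hl, h3 with
        | [], _, _ => rfl
        | [x], _, _ => rfl
        | x :: y :: l, hl, h3 =>
          rw [zE, hz (y :: l) (Nat.succ_injective hl) (Or.inl ⟨i, hi, fun a ha b hb =>
            h3 a (List.mem_cons_of_mem _ ha) b (List.mem_cons_of_mem _ hb)⟩), mul_zero]
      · refine fun k' hk' => (hc k hk k' hk').imp_right fun h w => zN_inv H.N0 (fun v => ?_) w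
        match v with
        | [] => rfl
        | [x] => rfl
        | x :: y :: l =>
          have h3 := hG k' (by omega) (y :: l)
          rw [List.map_cons] at h3
          rw [List.map_cons, List.map_cons, zE, zE, h3, h.2]
  by_contra hcon
  push Not at hcon
  exact one n le_rfl (supp n le_rfl _ hcon)

end Vale.Agent.P093
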