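import Vale.Agent.P093Z.Defs

/-! P093Z Kap. Helper names start with `kp_`. First `N * kap a b = (b - a).valMinAbs - (b.val - a.val)` (the right side is `0` in `ZMod N`: `ZMod.intCast_zmod_eq_zero_iff_dvd`, `ZMod.coe_valMinAbs`, `Int.mul_ediv_cancel'`); cancel `N`. `∑ j ∈ range N, (a + j).val` does not depend on `a` (`Finset.sum_range` with `ZMod.finEquiv`, or `Finset.sum_bij` to `univ : Finset (ZMod N)`, `Equiv.sum_comp (Equiv.addLeft a)`), so `∑ kap (a+j) (b+j) = (b - a).valMinAbs` in `ℤ`, which is `b.val - a.val + N * kap a b`. `kap_zero`: an integer divisible by `N` of absolute value `< N` (`ZMod.natAbs_valMinAbs_le` or use all three bounds). -/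

open Filter Topology Set

noncomputable section

namespace Vale.Agent.P093

variable {N : ℕ} [NeZero N]

theorem kp_mul (a b : ZMod N) :
    (N : ℤ) * kap a b = (b - a).valMinAbs - ((b.val : ℤ) - a.val) := by
  refine Int.mul_ediv_cancel' ((ZMod.intCast_zmod_eq_zero_iff_dvd _ _).1 ?_)
  push_cast
  rw [ZMod.natCast_zmod_val, ZMod.natCast_zmod_val, sub_self]

theorem kp_ne : (N : ℤ) ≠ 0 := Int.natCast_ne_zero.2 (NeZero.ne N)

theorem kp_range (g : ZMod N → ℤ) : ∑ j ∈ Finset.range N, g (j : ZMod N) = ∑ x, g x := by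
  refine Finset.sum_nbij' (fun j => (j : ZMod N)) (fun x => x.val) (fun _ _ => Finset.mem_univ _)
    (fun x _ => Finset.mem_range.2 (ZMod.val_lt x))
    (fun j hj => ZMod.val_cast_of_lt (Finset.mem_range.1 hj))
    (fun x _ => ZMod.natCast_zmod_val x) fun _ _ => rfl

theorem kp_val (a : ZMod N) :
    ∑ j ∈ Finset.range N, ((a + (j : ZMod N)).val : ℤ) = ∑ x : ZMod N, (x.val : ℤ) := by
  refine (kp_range fun x : ZMod N => ((a + x).val : ℤ)).trans ?_
  exact Equiv.sum_comp (Equiv.addLeft a) fun x : ZMod N => (x.val : ℤ)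

theorem kp_sum (a b : ZMod N) :
    ∑ j ∈ Finset.range N, kap (a + (j : ZMod N)) (b + (j : ZMod N)) = (b - a).valMinAbs := by
  refine mul_left_cancel₀ (kp_ne (N := N)) ?_
  rw [Finset.mul_sum]
  simp only [kp_mul, add_sub_add_right_eq_sub, Finset.sum_sub_distrib, kp_val]
  simp

theorem kap_inv (a b c t : ZMod N) : kap (b + t) (c + t) - kap (a + t) (c + t) +
    kap (a + t) (b + t) = kap b c - kap a c + kap a b := by
  refine mul_left_cancel₀ (kp_ne (N := N)) ?_
  simp only [mul_add, mul_sub, kp_mul, add_sub_add_right_eq_sub]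
  ring

theorem kap_zero {a b c : ZMod N} (h1 : |(b - a).valMinAbs| * 4 < N)
    (h2 : |(c - b).valMinAbs| * 4 < N) (h3 : |(c - a).valMinAbs| * 4 < N) :
    kap b c - kap a c + kap a b = 0 := by
  have e : (N : ℤ) * (kap b c - kap a c + kap a b) =
      (c - b).valMinAbs - (c - a).valMinAbs + (b - a).valMinAbs := by
    simp only [mul_add, mul_sub, kp_mul]
    ring
  have a1 := le_abs_self (b - a).valMinAbs
  have a2 := neg_abs_le (b - a).valMinAbs
  have b1 := le_abs_self (c - b).valMinAbs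
  have b2 := neg_abs_le (c - b).valMinAbs
  have c1 := le_abs_self (c - a).valMinAbs
  have c2 := neg_abs_le (c - a).valMinAbs
  have hN : (0 : ℤ) < N := Int.natCast_pos.2 (Nat.pos_of_ne_zero (NeZero.ne N))
  generalize kap b c - kap a c + kap a b = z at e
  have u : (N : ℤ) * z < N * 1 := by linarith
  have l : (N : ℤ) * (-1) < N * z := by linarith
  have u' := lt_of_mul_lt_mul_left u hN.le
  have l' := lt_of_mul_lt_mul_left l hN.le
  omega

theorem kap_sum {K : Type} [CommRing K] (N0 : (N : K) = 0) (a b : ZMod N) :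
    ∑ j ∈ Finset.range N, (kap (a + (j : ZMod N)) (b + (j : ZMod N)) : K) = (b.val : K) - (a.val : K) := by
  have h1 := congrArg (Int.cast : ℤ → K) (kp_sum a b)
  have h2 := congrArg (Int.cast : ℤ → K) (kp_mul a b)
  push_cast at h1 h2
  rw [N0, zero_mul] at h2
  rw [h1]
  linear_combination -h2

theorem kap_succ {K : Type} [CommRing K] (N0 : (N : K) = 0) (a : ZMod N) :
    ((a + 1).val : K) = (a.val : K) + 1 := by
  have h : (N : ℤ) ∣ ((a + 1).val : ℤ) - (a.val + 1) := by
    refine (ZMod.intCast_zmod_eq_zero_iff_dvd _ _).1 ?_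
    push_cast
    rw [ZMod.natCast_zmod_val, ZMod.natCast_zmod_val, sub_self]
  obtain ⟨z, hz⟩ := h
  have h2 := congrArg (Int.cast : ℤ → K) hz
  push_cast at h2
  rw [N0, zero_mul] at h2
  linear_combination h2

omit [NeZero N] in
theorem kap_big (n N₀ : ℕ) (hn : 0 < n) : ∃ N ≥ N₀, 16 ≤ N ∧ ((N : ℕ) : ZMod n) = 0 ∧
    ∑ j ∈ Finset.range N, (j : ZMod n) = 0 := by
  refine ⟨n * (N₀ + 16) * 2, by nlinarith, by nlinarith, by simp, ?_⟩
  have h := Finset.sum_range_id_mul_two (n * (N₀ + 16) * 2)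
  have h2 : ∑ j ∈ Finset.range (n * (N₀ + 16) * 2), j =
      n * ((N₀ + 16) * (n * (N₀ + 16) * 2 - 1)) := by
    refine Nat.eq_of_mul_eq_mul_right two_pos ?_
    rw [h]
    ring
  rw [← Nat.cast_sum, h2, Nat.cast_mul, ZMod.natCast_self, zero_mul]

end Vale.Agent.P093
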