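import Vale.Agent.P093Z.Geo
import Vale.Agent.P093Z.Cmb
import Vale.Agent.P093Z.Kap

/-! P093Z Cap (TASK). Port of `blk_G`, `blk_gn`, `blk_gf`, `blk_comb` in `P093E/Blk.lean`, applying `z_comb`. Helper names start with `cap_`. `T k = Prod.map id (zT N (fac ⟨k, _⟩))` for `k < n` (else `id`), `f k i = Prod.map id (zF ⟨k, _⟩ (i / N))`, `ρ k y = ((r k y).val : K)`; `kap_inv`, `kap_sum`, `kap_succ`; `r k ((T k)^[j] y) = r k y + j`. `Ge k l`: length `m + 2 * k + 1`, second components in `zK fac` with coordinates `inl j`, `k ≤ j`, zero, mutual distances `≤ k * (9 / N)`, first components `δ`-close; `Go k l`: length `m + 2 * k + 2`, distances `≤ k * (9 / N) + 7 / N` (`rot_dist`, `rot_move`, `zMv_dist` with `η = 1 / N`). -/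

open Filter Topology Set

noncomputable section

namespace Vale.Agent.P093

section

variable {C : Type} [Fintype C] [DecidableEq C] {n : ℕ} {fac : Fin n → C} {X : Type}
  [MetricSpace X] {δ d : ℝ} {N k : ℕ} {l w : List (X × {y // zNZ fac y})}

/-- The conditions on the lists. -/
def cap_G (δ : ℝ) (k : ℕ) (d : ℝ) (l : List (X × {y // zNZ fac y})) : Prop :=
  (∀ x ∈ l, x.2.1 ∈ zK fac ∧ ∀ j : Fin n, k ≤ j.val → x.2.1 (.inl j) = 0) ∧
    (∀ x ∈ l, ∀ y ∈ l, ‖x.2.1 - y.2.1‖ ≤ d) ∧ ∀ x ∈ l, ∀ y ∈ l, dist x.1 y.1 < δ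

theorem cap_T (a : C) {x : {y // zNZ fac y}}
    (h : x.1 ∈ zK fac ∧ ∀ j : Fin n, k ≤ j.val → x.1 (.inl j) = 0) :
    (zT N a x).1 ∈ zK fac ∧ ∀ j : Fin n, k ≤ j.val → (zT N a x).1 (.inl j) = 0 := by
  rw [zT_val]
  exact ⟨zK_rot N a h.1, fun j hj => by simp only [rot, h.2 j hj, mul_zero, ite_self]⟩

theorem cap_gn (h : cap_G δ k d l) (a : C) :
    cap_G δ k d (l.map fun x => (x.1, zT N a x.2)) := by
  simp only [cap_G, List.forall_mem_map]
  refine ⟨fun x hx => cap_T a (h.1 x hx), fun x hx y hy => ?_, h.2.2⟩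
  rw [zT_val, zT_val]
  exact (rot_dist N a _ _).trans (h.2.1 x hx y hy)

theorem cap_gt (hN : 0 < N) (h : cap_G δ k d l) (a : C)
    (hz : ∀ z ∈ w, ∃ x ∈ l, z = x ∨ z = (x.1, zT N a x.2)) : cap_G δ k (d + 7 / N) w := by
  have h0 : (0 : ℝ) ≤ 7 / N := by positivity
  refine ⟨fun z hz' => ?_, fun z hz' z' hz'' => ?_, fun z hz' z' hz'' => ?_⟩
  · obtain ⟨x, hx, rfl | rfl⟩ := hz z hz'
    · exact h.1 _ hx
    · exact cap_T a (h.1 x hx)
  · obtain ⟨x, hx, e⟩ := hz z hz'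
    obtain ⟨y, hy, e'⟩ := hz z' hz''
    have h1 := h.2.1 x hx y hy
    have h2 := rot_move hN a (h.1 x hx).1
    have h3 := rot_move hN a (h.1 y hy).1
    rcases e with e | e <;> rcases e' with e' | e' <;> rw [e, e'] <;> try simp only [zT_val]
    · linarith
    · rw [norm_sub_rev] at h3
      exact (norm_sub_le_norm_sub_add_norm_sub _ y.2.1 _).trans (add_le_add h1 h3)
    · exact (norm_sub_le_norm_sub_add_norm_sub _ x.2.1 _).trans (by linarith)
    · exact (rot_dist N a _ _).trans (by linarith)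
  · obtain ⟨x, hx, e⟩ := hz z hz'
    obtain ⟨y, hy, e'⟩ := hz z' hz''
    rcases e with e | e <;> rcases e' with e' | e' <;> rw [e, e'] <;> exact h.2.2 x hx y hy

theorem cap_gf {i : ℕ} (N0 : (0 : ℝ) < N) (hm : k < n) (hi : i < N) (h : cap_G δ k d l)
    (hz : ∀ z ∈ w, ∃ x ∈ l, z = (x.1, zF ⟨k, hm⟩ ((i : ℝ) / N) x.2) ∨
      z = (x.1, zF ⟨k, hm⟩ (((i + 1 : ℕ) : ℝ) / N) x.2)) : cap_G δ (k + 1) (d + 1 / N * 2) w := by
  have i0 : (0 : ℝ) ≤ i / N := by positivity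
  have i1 : (i : ℝ) / N + 1 / N ≤ 1 := by
    rw [← add_div, div_le_one N0]
    exact_mod_cast hi
  have key : ∀ z ∈ w, ∃ x ∈ l, ∃ τ : ℝ, (i : ℝ) / N ≤ τ ∧ τ ≤ i / N + 1 / N ∧
      z.2.1 = zMv fac ⟨k, hm⟩ τ x.2.1 ∧ z.2.1 ∈ zK fac ∧ z.1 = x.1 := fun z hz' => by
    have k2 : ∀ x ∈ l, ∀ τ : ℝ, (i : ℝ) / N ≤ τ → τ ≤ i / N + 1 / N →
        z = (x.1, zF ⟨k, hm⟩ τ x.2) →
        z.2.1 = zMv fac ⟨k, hm⟩ τ x.2.1 ∧ z.2.1 ∈ zK fac ∧ z.1 = x.1 := fun x hx τ t1 t2 e => by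
      have k3 := zK_mv (h.1 x hx).1 ((h.1 x hx).2 ⟨k, hm⟩ le_rfl) (i0.trans t1) (t2.trans i1)
      rw [e, zF, dif_pos (zK_nz k3)]
      exact ⟨rfl, k3, rfl⟩
    obtain ⟨x, hx, h1 | h1⟩ := hz z hz'
    · have t2 : (i : ℝ) / N ≤ i / N + 1 / N := le_add_of_nonneg_right (by positivity)
      exact ⟨x, hx, _, le_rfl, t2, k2 x hx _ le_rfl t2 h1⟩
    · have t1 : (i : ℝ) / N ≤ ((i + 1 : ℕ) : ℝ) / N := by gcongr; omega
      have t2 : ((i + 1 : ℕ) : ℝ) / N ≤ i / N + 1 / N := by push_cast; rw [add_div]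
      exact ⟨x, hx, _, t1, t2, k2 x hx _ t1 t2 h1⟩
  refine ⟨fun z hz' => ?_, fun z hz' z' hz'' => ?_, fun z hz' z' hz'' => ?_⟩
  · obtain ⟨x, hx, τ, -, -, e, hK', -⟩ := key z hz'
    refine ⟨hK', fun j hj => ?_⟩
    have hj' : (Sum.inl j : Fin n ⊕ C) ≠ .inl ⟨k, hm⟩ := fun h' => by
      have := congrArg Fin.val (Sum.inl_injective h')
      simp only at this
      omega
    rw [e, zMv, (h.1 x hx).2 j (by omega), if_neg hj']
    simp
  · obtain ⟨x, hx, τ, t1, t2, e, -⟩ := key z hz'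
    obtain ⟨y, hy, τ', t1', t2', e', -⟩ := key z' hz''
    rw [e, e']
    refine (zMv_dist (η := 1 / N) (h.1 y hy).1 _ (i0.trans t1) (t2.trans i1)
      (abs_le.2 ⟨by linarith, by linarith⟩)).trans ?_
    linarith [h.2.1 x hx y hy]
  · obtain ⟨x, hx, -, -, -, -, -, e⟩ := key z hz'
    obtain ⟨y, hy, -, -, -, -, -, e'⟩ := key z' hz''
    rw [e, e']
    exact h.2.2 x hx y hy

end

theorem cap_iter {X Y : Type} (g : Y → Y) (j : ℕ) (x : X × Y) :
    (fun x : X × Y => (x.1, g x.2))^[j] x = (x.1, g^[j] x.2) := by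
  induction j with
  | zero => rfl
  | succ j ih => rw [Function.iterate_succ_apply', Function.iterate_succ_apply', ih]

theorem cap_comb {C : Type} [Fintype C] [DecidableEq C] {n : ℕ} {fac : Fin n → C} {X K : Type}
    [MetricSpace X] [CommRing K] {m : ℕ} {A B : Fin m → Set X} {δ : ℝ} (z : List (List X))
    (z1 : ∀ l ∈ z, l.length = m + 1 ∧ ∀ x ∈ l, ∀ y ∈ l, dist x y < δ)
    (z2 : ∀ φ : List X → K, (∀ l, l.length = m →
      (∃ i, (∀ x ∈ l, x ∈ A i) ∨ ∀ x ∈ l, x ∈ B i) → φ l = 0) → (z.map (zD φ)).sum = 0)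
    (z3 : ∀ s : ℕ → X → K, (∀ i : Fin m, ∀ a ∈ A i, s i.rev a = 0) →
      (∀ i : Fin m, ∀ b ∈ B i, s i.rev b = 1) → (z.map (zB s m)).sum ≠ 0)
    {N : ℕ} [NeZero N] (N0 : (N : K) = 0) (N1 : ∑ j ∈ Finset.range N, (j : K) = 0)
    (s : ℕ → X × {y // zNZ fac y} → K) (sA : ∀ (i : Fin m) y, y.1 ∈ A i → s i.rev y = 0)
    (sB : ∀ (i : Fin m) y, y.1 ∈ B i → s i.rev y = 1)
    (sT : ∀ k < m, ∀ a y, s k (y.1, zT N a y.2) = s k y)
    (r : Fin n → X × {y // zNZ fac y} → ZMod N) (χ : Fin n → C → ZMod N)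
    (hr : ∀ k a y, r k (y.1, zT N a y.2) = r k y + χ k a) (χ1 : ∀ k, χ k (fac k) = 1)
    (χ0 : ∀ k k', k' < k → fac k' ≠ fac k → χ k (fac k') = 0) :
    ∃ l : List (X × {y // zNZ fac y}), (l.length = m + 2 * n + 1 ∧ (∀ x ∈ l, x.2.1 ∈ zK fac) ∧
      (∀ x ∈ l, ∀ y ∈ l, ‖x.2.1 - y.2.1‖ ≤ n * (9 / N)) ∧ ∀ x ∈ l, ∀ y ∈ l, dist x.1 y.1 < δ) ∧
      zG (zB s m) (fun k x y => if h : k < n then (kap (r ⟨k, h⟩ x) (r ⟨k, h⟩ y) : K) else 0)
        n l ≠ 0 := by
  have hN : 0 < N := NeZero.pos N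
  have N0' : (0 : ℝ) < N := Nat.cast_pos.2 hN
  have e0 : (Sum.elim (fun _ => 0) fun _ => 1 : Fin n ⊕ C → ℂ) ∈ zK fac := fun a => by
    simp [Fintype.sum_sum_type]
  let e : {y // zNZ fac y} := ⟨_, zK_nz e0⟩
  let g : X → X × {y // zNZ fac y} := fun x => (x, e)
  have hit : ∀ (k : Fin n) (j : ℕ) y, r k ((fun x => (x.1, zT N (fac k) x.2))^[j] y) =
      r k y + j := fun k j y => by
    induction j with
    | zero => rw [Nat.cast_zero, add_zero]; rfl
    | succ j ih => rw [Function.iterate_succ_apply', hr, ih, χ1, Nat.cast_succ, add_assoc]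
  have H : ZH m n N (fun φ : List (X × {y // zNZ fac y}) → K => (z.map fun l => φ (l.map g)).sum)
      (fun k x => (x.1, (if h : k < n then zT N (fac ⟨k, h⟩) else id) x.2))
      (fun k i x => (x.1, (if h : k < n then zF ⟨k, h⟩ ((i : ℝ) / N) else id) x.2))
      (fun l => ∃ i, (∀ y ∈ l, y.1 ∈ A i) ∨ ∀ y ∈ l, y.1 ∈ B i) :=
    { N0 := N0
      Iadd := fun φ ψ => List.sum_map_add
      Ibd := fun φ h => by
        simp only [← zD_map]
        refine z2 _ fun l hl ⟨i, hi⟩ => h _ (by rw [List.length_map, hl]) ⟨i, ?_⟩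
        simpa only [List.forall_mem_map] using hi
      bT := fun k l w ⟨j, hj⟩ hz => ⟨j, hj.imp
        (fun h y hy => by
          obtain ⟨x, hx, e | e⟩ := hz y hy <;> rw [e] <;> exact h x hx)
        fun h y hy => by
          obtain ⟨x, hx, e | e⟩ := hz y hy <;> rw [e] <;> exact h x hx⟩
      bf := fun k i l w ⟨j, hj⟩ hz => ⟨j, hj.imp
        (fun h y hy => by
          obtain ⟨x, hx, rfl | rfl⟩ := hz y hy <;> exact h x hx)
        fun h y hy => by
          obtain ⟨x, hx, rfl | rfl⟩ := hz y hy <;> exact h x hx⟩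
      hT := fun k x => by
        rw [cap_iter]
        split_ifs
        · rw [zT_iter hN]
        · rw [Function.iterate_id]
          rfl
      h0 := fun k x => by
        split_ifs
        · rw [Nat.cast_zero, zero_div, zF_zero]
        · rfl
      hN := fun k hk x => by simp only [dif_pos hk, div_self N0'.ne', zF_one]
      hc := fun k hk k' hk' => by
        simp only [dif_pos hk, dif_pos (hk'.trans hk)]
        by_cases h : fac ⟨k', hk'.trans hk⟩ = fac ⟨k, hk⟩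
        · exact Or.inl (by rw [h])
        · exact Or.inr ⟨fun x => Prod.ext rfl (zT_comm _ _ _ _),
            fun i x => Prod.ext rfl (zT_F N h _ _)⟩ }
  obtain ⟨l, ⟨h1, h2⟩, h3⟩ := z_comb H s
    (fun k x y => if h : k < n then (kap (r ⟨k, h⟩ x) (r ⟨k, h⟩ y) : K) else 0)
    (fun k y => if h : k < n then ((r ⟨k, h⟩ y).val : K) else 0)
    (fun k l => l.length = m + 2 * k + 1 ∧ cap_G δ k (k * (9 / N)) l)
    (fun k l => l.length = m + 2 * k + 2 ∧ cap_G δ k (k * (9 / N) + 7 / N) l) N1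
    (by
      simp only [zB_map]
      exact z3 _ (fun i a ha => sA i _ ha) fun i b hb => sB i _ hb)
    (fun φ h => by
      refine List.sum_eq_zero fun c hc => ?_
      obtain ⟨l, hl, rfl⟩ := List.mem_map.1 hc
      refine h _ ⟨by rw [List.length_map, (z1 l hl).1], ?_, ?_, ?_⟩
      · simp only [List.forall_mem_map]
        exact fun x _ => ⟨e0, fun j _ => rfl⟩
      · simp only [List.forall_mem_map]
        intro x _ y _
        simp [g]
      · simp only [List.forall_mem_map]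
        exact (z1 l hl).2)
    (fun l ⟨i, hi⟩ => ⟨i.rev, i.rev.2, fun x hx y hy => by
      rcases hi with h | h
      · rw [sA i x (h x hx), sA i y (h y hy)]
      · rw [sB i x (h x hx), sB i y (h y hy)]⟩)
    (fun k hk k' hk' => by
      simp only [dif_pos hk, dif_pos (hk'.trans hk)]
      by_cases h : fac ⟨k', hk'.trans hk⟩ = fac ⟨k, hk⟩
      · exact Or.inl (by rw [h])
      · have h4 := χ0 ⟨k, hk⟩ ⟨k', hk'.trans hk⟩ hk' h
        exact Or.inr ⟨fun x => by rw [hr, h4, add_zero], fun x y => by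
          rw [hr, hr, h4, add_zero, add_zero]⟩)
    (fun i hi k x => by
      split_ifs
      · exact sT i hi _ x
      · rfl)
    (fun k hk k' hk' x y z => by
      simp only [dif_pos hk, dif_pos hk', hr]
      have h4 := congrArg (Int.cast : ℤ → K)
        (kap_inv (r ⟨k, hk⟩ x) (r ⟨k, hk⟩ y) (r ⟨k, hk⟩ z) (χ ⟨k, hk⟩ (fac ⟨k', hk'⟩)))
      simpa only [Int.cast_add, Int.cast_sub] using h4)
    (fun k hk x => by simp only [dif_pos hk, hr, χ1, kap_succ N0])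
    (fun k hk x y => by simp only [dif_pos hk, hit, kap_sum N0])
    (fun k hk l w h hw hz => by
      simp only [dif_pos hk] at hz
      exact ⟨by rw [hw, h.1], cap_gt hN h.2 _ hz⟩)
    (fun k hk l h => by
      simp only [dif_pos hk]
      exact ⟨by rw [List.length_map, h.1], cap_gn h.2 _⟩)
    (fun k hk i hi l w h hw hz => by
      simp only [dif_pos hk] at hz
      have e1 : ((k + 1 : ℕ) : ℝ) * (9 / N) = k * (9 / N) + 7 / N + 1 / N * 2 := by
        push_cast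
        ring
      rw [e1]
      exact ⟨by rw [hw, h.1]; rfl, cap_gf N0' hk hi h.2 hz⟩)
  exact ⟨l, ⟨h1, fun x hx => (h2.1 x hx).1, h2.2⟩, h3⟩

end Vale.Agent.P093
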