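import Vale.Agent.P093C.Rate

/-! P093Z: mean cohomological dimension with integer coefficients. -/

open Filter
open scoped ENNReal

noncomputable section

namespace Vale.Agent.P093

variable {X : Type} [MetricSpace X]

/-- The cup product of the classes of the pairs `(A i, B i)` is not zero in integral Cech
cohomology: at every scale it is not zero on some relative Vietoris cycle mod some `n`. -/
def EssZ {m : ℕ} (A B : Fin m → Set X) : Prop :=
  ∀ δ > 0, ∃ n > 0, ∃ z : List (Fin (m + 1) → X), (∀ x ∈ z, ∀ i j, dist (x i) (x j) < δ) ∧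
    (∀ φ : (Fin m → X) → ZMod n,
      (∀ y i, (∀ j, y j ∈ A i) ∨ (∀ j, y j ∈ B i) → φ y = 0) →
      (z.map fun x => ∑ j : Fin (m + 1),
        (-1) ^ (j : ℕ) * φ fun i => x (j.succAbove i)).sum = 0) ∧
    ∀ s : Fin m → X → ZMod n, (∀ i, ∀ a ∈ A i, s i a = 0) → (∀ i, ∀ b ∈ B i, s i b = 1) →
      (z.map fun x => ∏ i, (s i (x i.succ) - s i (x i.castSucc))).sum ≠ 0

/-- The largest length of an essential family of pairs separated by `𝒰`. -/
def intOrd (𝒰 : Set (Set X)) : ℝ≥0∞ :=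
  ⨆ (m : ℕ) (A : Fin m → Set X) (B : Fin m → Set X)
    (_ : ∀ U ∈ 𝒰, ∀ i, ∀ a ∈ A i, ∀ b ∈ B i, a ∈ U → b ∉ U) (_ : EssZ A B), (m : ℝ≥0∞)

/-- Its growth rate. -/
def intRate (h : X ≃ₜ X) (𝒰 : Set (Set X)) : ℝ≥0∞ :=
  limsup (fun N : ℕ => intOrd (joinCov h 𝒰 N) / N) atTop

end Vale.Agent.P093
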