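import Vale.Agent.P093E.Defs
import Vale.Agent.P093Z.Stmt

/-! P093Z: definitions used in the proof (no task here). -/

open Filter Topology Set

noncomputable section

namespace Vale.Agent.P093

section

variable {X K : Type} [CommRing K]

/-- coboundary -/
def zD : (List X → K) → List X → K
  | _, [] => 0
  | φ, x :: l => φ l - zD (fun w => φ (x :: w)) l

/-- prism operator -/
def zP (f g : X → X) : (List X → K) → List X → K
  | _, [] => 0
  | φ, x :: l => φ (f x :: g x :: l.map g) - zP f g (fun w => φ (f x :: w)) l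

/-- cup product with a function -/
def zC (s : X → K) (β : List X → K) : List X → K
  | [] => 0
  | x :: l => s x * β (x :: l)

/-- cup product with a cochain of degree one -/
def zE (κ : X → X → K) (β : List X → K) : List X → K
  | x :: y :: l => κ x y * β (y :: l)
  | _ => 0

/-- cup products of classes of degree one -/
def zB (s : ℕ → X → K) : ℕ → List X → K
  | 0 => zD fun w => if w.length = 0 then 1 else 0
  | k + 1 => zD (zC (s k) (zB s k))

/-- cup products with classes of degree two -/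
def zG (β : List X → K) (κ : ℕ → X → X → K) : ℕ → List X → K
  | 0 => β
  | k + 1 => zD (zE (κ k) (zG β κ k))

/-- the norm -/
def zN (N : ℕ) (T : X → X) (φ : List X → K) (w : List X) : K :=
  ∑ j ∈ Finset.range N, φ (w.map T^[j])

/-- the cells of the products of lens spaces -/
def zI (I₀ : (List X → K) → K) (T : ℕ → X → X) (f : ℕ → ℕ → X → X) (N : ℕ) :
    ℕ → (List X → K) → K
  | 0, φ => I₀ φ
  | k + 1, φ => ∑ i ∈ Finset.range N,
      zI I₀ T f N k (zP id (T k) (zN N (T k) (zP (f k i) (f k (i + 1)) φ)))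

/-- The common hypotheses. -/
structure ZH (m n N : ℕ) (I₀ : (List X → K) → K) (T : ℕ → X → X) (f : ℕ → ℕ → X → X)
    (Bd : List X → Prop) : Prop where
  N0 : (N : K) = 0
  Iadd : ∀ φ ψ, I₀ (fun w => φ w + ψ w) = I₀ φ + I₀ ψ
  Ibd : ∀ φ, (∀ l, l.length = m → Bd l → φ l = 0) → I₀ (zD φ) = 0
  bT : ∀ k l w, Bd l → (∀ z ∈ w, ∃ x ∈ l, z = x ∨ z = T k x) → Bd w
  bf : ∀ k i l w, Bd l → (∀ z ∈ w, ∃ x ∈ l, z = f k i x ∨ z = f k (i + 1) x) → Bd w
  hT : ∀ k x, (T k)^[N] x = x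
  h0 : ∀ k x, f k 0 x = x
  hN : ∀ k < n, ∀ x, f k N (T k x) = f k N x
  hc : ∀ k < n, ∀ k' < k, T k' = T k ∨ ((∀ x, T k' (T k x) = T k (T k' x)) ∧
    ∀ i x, T k' (f k i x) = f k i (T k' x))

end

/-- The carry. -/
def kap {N : ℕ} (a b : ZMod N) : ℤ := ((b - a).valMinAbs - ((b.val : ℤ) - a.val)) / N

/-- The root of unity. -/
def zeta (N : ℕ) : ℂ := Complex.exp (2 * Real.pi * Complex.I / N)

section

variable {A : Type} [DecidableEq A] {n : ℕ} (fac : Fin n → A)

/-- Rotation of the block `a`. -/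
def rot (a : A) (c : ℂ) (x : Fin n ⊕ A → ℂ) : Fin n ⊕ A → ℂ :=
  fun i => if Sum.elim fac id i = a then c * x i else x i

/-- No block vanishes. -/
def zNZ (x : Fin n ⊕ A → ℂ) : Prop := ∀ a, ∃ i, Sum.elim fac id i = a ∧ x i ≠ 0

/-- Moving the block of `k` towards the basis vector `k`. -/
def zMv (k : Fin n) (τ : ℝ) (x : Fin n ⊕ A → ℂ) : Fin n ⊕ A → ℂ := fun i =>
  if Sum.elim fac id i = fac k then (1 - τ) * x i + τ * (if i = .inl k then 1 else 0) else x i

/-- The product of the spheres. -/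
def zK [Fintype A] : Set (Fin n ⊕ A → ℂ) :=
  {x | ∀ a, ∑ i, (if Sum.elim fac id i = a then ‖x i‖ else 0) = 1}

variable {fac}

open Classical in
/-- Rotation on the subtype. -/
def zT (N : ℕ) (a : A) (x : {x // zNZ fac x}) : {x // zNZ fac x} :=
  if h : zNZ fac (rot fac a (zeta N) x.1) then ⟨_, h⟩ else x

open Classical in
/-- The move on the subtype. -/
def zF (k : Fin n) (τ : ℝ) (x : {x // zNZ fac x}) : {x // zNZ fac x} :=
  if h : zNZ fac (zMv fac k τ x.1) then ⟨_, h⟩ else x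

end

variable {X : Type} [MetricSpace X]

/-- Essential disjoint pairs. -/
def EssY {m : ℕ} (A B : Fin m → Set X) : Prop := EssZ A B ∧ ∀ i, ∀ a ∈ A i, a ∉ B i

/-- Products of spheres along long orbit segments, up to an essential correspondence. -/
structure MarkY (h : X ≃ₜ X) (q p : ℕ) (ε : ℝ) {L : Type} (g : X → ℝ)
    (ρ : L → X → Fin 3 → ℝ) : Prop where
  urp : Urp h q ε g
  cont : ∀ i, Continuous (ρ i)
  ball : ∀ i x, ∑ c, ρ i x c ^ 2 ≤ 1
  cube : ∀ C : ℕ, ∃ (M m k o : ℕ) (A B : Fin m → Set X) (φ : X → X)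
    (R : X × (Fin M × L → S2) → Fin m → ℝ), EssY A B ∧ Continuous φ ∧ MirH A B R ∧
    (∀ τ ω, R (τ, ω) = 0 → ∃ Bad : Finset (Fin M × L), Bad.card ≤ k ∧ ∀ γ ∉ Bad, ∀ s : Fin q,
      g ((h ^ pos γ.1 s) (φ τ)) ≠ 0 → ρ γ.2 ((h ^ pos γ.1 s) (φ τ)) = (ω γ).1) ∧
    (∀ τ, ∃ Off : Finset (Fin M), Off.card ≤ o ∧
      ∀ j ∉ Off, ∃ s : Fin q, g ((h ^ pos j s) (φ τ)) = 1) ∧
    4 * k + C + o * p < M * p

end Vale.Agent.P093
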