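import Vale.Agent.P093Z.Sec

/-! P093Z Geo (TASK). Complex port of the lemmas `bub*` of `Vale/Agent/P093/BUa.lean`. Use `zeta_norm`, `zeta_pow`, `zeta_sub`. Helper names start with `zge_`. -/

open Filter Topology Set

noncomputable section

namespace Vale.Agent.P093

variable {A : Type} [DecidableEq A] {n : ℕ} {fac : Fin n → A}

theorem zge_norm (N : ℕ) (a : A) (x : Fin n ⊕ A → ℂ) (i) : ‖rot fac a (zeta N) x i‖ = ‖x i‖ := by
  simp only [rot]
  split_ifs
  · rw [norm_mul, zeta_norm, one_mul]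
  · rfl

theorem zge_nz (N : ℕ) (a : A) {x : Fin n ⊕ A → ℂ} :
    zNZ fac (rot fac a (zeta N) x) ↔ zNZ fac x := by
  simp only [zNZ, ← norm_ne_zero_iff (a := rot fac a (zeta N) x _), zge_norm, norm_ne_zero_iff]

theorem zge_comm (c d : ℂ) (a b : A) (x : Fin n ⊕ A → ℂ) :
    rot fac a c (rot fac b d x) = rot fac b d (rot fac a c x) := by
  funext i
  simp only [rot]
  split_ifs
  · ring
  · rfl
  · rfl
  · rfl

theorem zge_mv {a : A} {k : Fin n} (h : a ≠ fac k) (c : ℂ) (τ : ℝ) (x : Fin n ⊕ A → ℂ) :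
    rot fac a c (zMv fac k τ x) = zMv fac k τ (rot fac a c x) := by
  funext i
  simp only [rot, zMv]
  by_cases h1 : Sum.elim fac id i = a
  · have h2 : Sum.elim fac id i ≠ fac k := fun h2 => h (h1.symm.trans h2)
    simp only [if_pos h1, if_neg h2]
  · simp only [if_neg h1]

theorem zT_val (N : ℕ) (a : A) (x : {x // zNZ fac x}) :
    (zT N a x).1 = rot fac a (zeta N) x.1 := by
  unfold zT
  rw [dif_pos ((zge_nz N a).2 x.2)]

theorem zT_iter {N : ℕ} (hN : 0 < N) (a : A) (x : {x // zNZ fac x}) : (zT N a)^[N] x = x := by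
  have key : ∀ m : ℕ, ((zT N a)^[m] x).1 = rot fac a (zeta N ^ m) x.1 := by
    intro m
    induction m with
    | zero =>
      funext i
      simp [rot]
    | succ m ih =>
      rw [Function.iterate_succ_apply', zT_val, ih]
      funext i
      simp only [rot]
      split_ifs
      · ring
      · rfl
  refine Subtype.ext ?_
  rw [key, zeta_pow hN]
  funext i
  simp [rot]

theorem zT_comm (N : ℕ) (a b : A) (x : {x // zNZ fac x}) :
    zT N a (zT N b x) = zT N b (zT N a x) := by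
  refine Subtype.ext ?_
  rw [zT_val, zT_val, zT_val, zT_val, zge_comm]

theorem zF_zero (k : Fin n) (x : {x // zNZ fac x}) : zF k 0 x = x := by
  have e : zMv fac k 0 x.1 = x.1 := by
    funext i
    simp [zMv]
  unfold zF
  split_ifs
  · exact Subtype.ext e
  · rfl

theorem zF_one (N : ℕ) (k : Fin n) (x : {x // zNZ fac x}) :
    zF k 1 (zT N (fac k) x) = zF k 1 x := by
  have e : zMv fac k 1 (zT N (fac k) x).1 = zMv fac k 1 x.1 := by
    rw [zT_val]
    funext i
    simp only [zMv, rot]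
    split_ifs <;> simp
  have h : zNZ fac (zMv fac k 1 x.1) := fun a => by
    by_cases ha : a = fac k
    · exact ⟨.inl k, ha.symm, by simp [zMv]⟩
    · obtain ⟨i, hi, h0⟩ := x.2 a
      exact ⟨i, hi, by rwa [zMv, if_neg (hi ▸ ha)]⟩
  unfold zF
  rw [dif_pos h, dif_pos (e ▸ h)]
  exact Subtype.ext e

theorem zT_F (N : ℕ) {a : A} {k : Fin n} (h : a ≠ fac k) (τ : ℝ) (x : {x // zNZ fac x}) :
    zT N a (zF k τ x) = zF k τ (zT N a x) := by
  have e : zMv fac k τ (zT N a x).1 = rot fac a (zeta N) (zMv fac k τ x.1) := by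
    rw [zT_val, zge_mv h]
  unfold zF
  by_cases h1 : zNZ fac (zMv fac k τ x.1)
  · rw [dif_pos h1, dif_pos (e ▸ (zge_nz N a).2 h1)]
    refine Subtype.ext ?_
    rw [zT_val]
    exact e.symm
  · rw [dif_neg h1, dif_neg fun h2 => h1 ((zge_nz N a).1 (e ▸ h2))]

variable [Fintype A]

theorem zge_le {x : Fin n ⊕ A → ℂ} (hx : x ∈ zK fac) (i) : ‖x i‖ ≤ 1 := by
  rw [← hx (Sum.elim fac id i)]
  refine le_of_eq_of_le ?_ (Finset.single_le_sum (f := fun j =>
    if Sum.elim fac id j = Sum.elim fac id i then ‖x j‖ else 0) (fun j _ => ?_) (Finset.mem_univ i))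
  · rw [if_pos rfl]
  · split_ifs <;> simp

theorem zK_nz {x : Fin n ⊕ A → ℂ} (hx : x ∈ zK fac) : zNZ fac x := by
  intro a
  by_contra h
  push Not at h
  refine zero_ne_one ((Finset.sum_eq_zero fun i _ => ?_).symm.trans (hx a))
  split_ifs with hi
  · rw [h i hi, norm_zero]
  · rfl

theorem zK_compact : IsCompact (zK fac) := by
  refine (isCompact_closedBall 0 1).of_isClosed_subset ?_ fun x hx =>
    mem_closedBall_zero_iff.2 ((pi_norm_le_iff_of_nonneg zero_le_one).2 (zge_le hx))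
  simp only [zK, ofPred_forall]
  refine isClosed_iInter fun a => isClosed_eq (continuous_finsetSum _ fun i _ => ?_)
    continuous_const
  split_ifs <;> fun_prop

theorem zK_rot (N : ℕ) (a : A) {x : Fin n ⊕ A → ℂ} (hx : x ∈ zK fac) :
    rot fac a (zeta N) x ∈ zK fac := by
  intro b
  simpa only [zge_norm] using hx b

theorem zK_mv {x : Fin n ⊕ A → ℂ} (hx : x ∈ zK fac) {k : Fin n} (h0 : x (.inl k) = 0) {τ : ℝ}
    (h1 : 0 ≤ τ) (h2 : τ ≤ 1) : zMv fac k τ x ∈ zK fac := by
  intro a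
  have n1 : ‖(1 - τ : ℂ)‖ = 1 - τ := by
    rw [show (1 - τ : ℂ) = ((1 - τ : ℝ) : ℂ) by push_cast; rfl, Complex.norm_real,
      Real.norm_of_nonneg (by linarith)]
  by_cases ha : a = fac k
  · subst ha
    have key : ∀ i, (if Sum.elim fac id i = fac k then ‖zMv fac k τ x i‖ else 0) =
        (1 - τ) * (if Sum.elim fac id i = fac k then ‖x i‖ else 0) +
          if i = .inl k then τ else 0 := by
      intro i
      by_cases hi : i = .inl k
      · subst hi
        simp [zMv, h0, abs_of_nonneg h1]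
      · simp only [zMv, if_neg hi, mul_zero, add_zero]
        split_ifs
        · rw [norm_mul, n1]
        · simp
    simp only [key, Finset.sum_add_distrib, ← Finset.mul_sum, hx (fac k), Finset.sum_ite_eq',
      Finset.mem_univ, if_true]
    ring
  · refine (Finset.sum_congr rfl fun i _ => ?_).trans (hx a)
    by_cases hi : Sum.elim fac id i = a
    · rw [if_pos hi, if_pos hi, zMv, if_neg (hi ▸ ha)]
    · rw [if_neg hi, if_neg hi]

theorem rot_dist (N : ℕ) (a : A) (x y : Fin n ⊕ A → ℂ) :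
    ‖rot fac a (zeta N) x - rot fac a (zeta N) y‖ ≤ ‖x - y‖ := by
  refine (pi_norm_le_iff_of_nonneg (norm_nonneg _)).2 fun i => ?_
  refine le_of_eq_of_le ?_ (norm_le_pi_norm (x - y) i)
  simp only [rot, Pi.sub_apply]
  split_ifs
  · rw [← mul_sub, norm_mul, zeta_norm, one_mul]
  · rfl

theorem rot_move {N : ℕ} (hN : 0 < N) (a : A) {x : Fin n ⊕ A → ℂ} (hx : x ∈ zK fac) :
    ‖rot fac a (zeta N) x - x‖ ≤ 7 / N := by
  have h7 : (0 : ℝ) ≤ 7 / N := by positivity
  refine (pi_norm_le_iff_of_nonneg h7).2 fun i => ?_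
  simp only [rot, Pi.sub_apply]
  split_ifs
  · rw [← sub_one_mul, norm_mul]
    exact (mul_le_mul (zeta_sub hN) (zge_le hx i) (norm_nonneg _) h7).trans (mul_one _).le
  · simpa using h7

theorem zMv_dist {x y : Fin n ⊕ A → ℂ} (hy : y ∈ zK fac) (k : Fin n) {τ τ' η : ℝ}
    (h1 : 0 ≤ τ) (h2 : τ ≤ 1) (h3 : |τ - τ'| ≤ η) :
    ‖zMv fac k τ x - zMv fac k τ' y‖ ≤ ‖x - y‖ + η * 2 := by
  have η0 : 0 ≤ η := (abs_nonneg _).trans h3
  have n1 : ‖(1 - τ : ℂ)‖ = 1 - τ := by
    rw [show (1 - τ : ℂ) = ((1 - τ : ℝ) : ℂ) by push_cast; rfl, Complex.norm_real,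
      Real.norm_of_nonneg (by linarith)]
  have n2 : ‖(τ - τ' : ℂ)‖ = |τ - τ'| := by
    rw [show (τ - τ' : ℂ) = ((τ - τ' : ℝ) : ℂ) by push_cast; rfl, Complex.norm_real,
      Real.norm_eq_abs]
  refine (pi_norm_le_iff_of_nonneg (by positivity)).2 fun i => ?_
  have h4 : ‖x i - y i‖ ≤ ‖x - y‖ := norm_le_pi_norm (x - y) i
  simp only [Pi.sub_apply, zMv]
  by_cases hi : Sum.elim fac id i = fac k
  · rw [if_pos hi, if_pos hi]
    generalize hc : (if i = Sum.inl k then (1 : ℂ) else 0) = c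
    have c1 : ‖c‖ ≤ 1 := by
      rw [← hc]
      split_ifs <;> simp
    rw [show (1 - τ : ℂ) * x i + τ * c - ((1 - τ') * y i + τ' * c) =
      (1 - τ) * (x i - y i) + (τ - τ') * (c - y i) by ring]
    refine (norm_add_le _ _).trans (add_le_add ?_ ?_)
    · rw [norm_mul, n1]
      nlinarith [norm_nonneg (x i - y i)]
    · rw [norm_mul, n2]
      exact mul_le_mul h3 ((norm_sub_le _ _).trans (by linarith [zge_le hy i])) (norm_nonneg _) η0
  · rw [if_neg hi, if_neg hi]
    linarith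

end Vale.Agent.P093
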