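import Vale.Agent.P093E.Grp
import Vale.Agent.P093Z.Defs

/-! P093Z Grp. Options and grouping. -/

open Filter Topology Set

noncomputable section

namespace Vale.Agent.P093

theorem exists_markY {X : Type} [MetricSpace X] {h : X ≃ₜ X} {q : ℕ} (hq : 0 < q) {ε : ℝ}
    (hε : 0 < ε) (hε' : ε ≤ 1 / 2) {g : X → ℝ} (hU : Urp h q ε g) {𝒰 : Set (Set X)}
    {Λ Λ₀ : Type} [Fintype Λ] [Fintype Λ₀] {n n₀ : ℕ} {col : Λ → Fin (n + 1)} {G : Λ → X → ℝ}
    (hc : Col (joinCov h 𝒰 q) col G) {col₀ : Λ₀ → Fin (n₀ + 1)} {G₀ : Λ₀ → X → ℝ}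
    (hc₀ : Col 𝒰 col₀ G₀) {c : ℝ} (c0 : 0 ≤ c) (c1 : c * q ≤ n + 1)
    (hcube : ∀ N₀ : ℕ, ∃ N ≥ N₀, ∃ (m : ℕ) (A B : Fin m → Set X) (φ : X → X), EssY A B ∧
      Continuous φ ∧ c * N ≤ m ∧
      ∀ U ∈ joinCov h 𝒰 N, ∀ i s t, s ∈ A i → t ∈ B i → φ s ∈ U → φ t ∉ U)
    {t γ p : ℕ} (hγ : γ * (2 * t + 1) ≤ n + 1)
    (hp : 8 * t * (n + 1 - c * q + (n₀ + 1) * ε * q) < p) :
    ∃ ρ : Fin γ × Fin t → X → Fin 3 → ℝ, MarkY h q p ε g ρ := by
  classical
  obtain ⟨ι⟩ : Nonempty (Fin γ × Fin (2 * t + 1) ↪ Fin (n + 1)) :=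
    Function.Embedding.nonempty_of_card_le (by simpa using hγ)
  obtain ⟨j, r, hj, hr, hr1, hrj⟩ := exists_emb t
  obtain ⟨C₀, hC0, hC⟩ : ∃ C₀ : ℝ, 0 ≤ C₀ ∧
      ∀ x (N : ℕ), (1 - ε) * N ≤ q * cnt h {x | g x = 1} x N + C₀ := by
    obtain ⟨C₀, hC⟩ := hU.fill
    exact ⟨max C₀ 0, le_max_right _ _, fun x N =>
      (hC x N).trans (add_le_add le_rfl (le_max_left _ _))⟩
  refine ⟨fun b x => r (fun a => 3 * (min 1 (2 * g x) * ∑ l with col l = ι (b.1, a), G l x) - 1)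
    b.2, hU, fun b => ?_, fun b x => hr1 _ _, fun C => ?_⟩
  · refine (continuous_apply b.2).comp (hr.comp (continuous_pi fun a => ?_))
    exact (continuous_const.mul ((continuous_const.min (continuous_const.mul hU.cont)).mul
      (continuous_finsetSum _ fun l _ => hc.cont l))).sub continuous_const
  obtain ⟨δ, hδ⟩ : ∃ δ : ℝ, δ = n + 1 - c * q + (n₀ + 1) * ε * q := ⟨_, rfl⟩
  obtain ⟨A, hA⟩ : ∃ A : ℝ, A = c * q + (n₀ + 1) * (q + C₀) := ⟨_, rfl⟩
  have hδ0 : 0 ≤ δ := by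
    have : (0 : ℝ) ≤ (n₀ + 1) * ε * q := by positivity
    linarith
  have hA0 : 0 ≤ A := by
    rw [hA]
    positivity
  rw [← hδ] at hp
  have hp' : 0 < p / 2 - 4 * t * δ := by linarith
  obtain ⟨M₀, hM₀⟩ := exists_nat_gt ((4 * t * A + C + C₀ * p) / (p / 2 - 4 * t * δ))
  rw [div_lt_iff₀ hp'] at hM₀
  obtain ⟨N, hN, m, A₁, B₁, φ, hE, hφ, hm, hsep⟩ := hcube (q * M₀)
  obtain ⟨M, hM, hN1, hN2⟩ := grc_M hq hN
  let F : (Fin M × Fin γ × Fin t → S2) → Fin M → Fin γ × Fin (2 * t + 1) → unitInterval :=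
    fun w u b => j (fun i => w (u, b.1, i)) b.2
  let y : (Fin M × Fin γ × Fin t → S2) → Fin M × Fin (n + 1) → ℝ := fun w b =>
    (1 + (Function.extend ι (F w b.1) 0 b.2 : unitInterval)) / 3
  have yc : Continuous y := continuous_pi fun b =>
    (continuous_const.add (continuous_subtype_val.comp
      (grp_cont ι.injective (F := fun w => F w b.1) (fun a => by fun_prop) 0 b.2))).div_const 3
  obtain ⟨R, hR, hR'⟩ := exists_RE hU hc hc₀ (M := M) hφ hsep yc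
    (fun w b => by
      have := (Function.extend ι (F w b.1) 0 b.2).2.1
      simp only [y]
      linarith)
    (fun w b => by
      have := (Function.extend ι (F w b.1) 0 b.2).2.2
      simp only [y]
      linarith)
  have hq1 : (1 : ℝ) ≤ q := by exact_mod_cast hq
  refine ⟨M, m, t * ⌊M * δ + A⌋₊, ⌊(M : ℝ) / 2 + C₀⌋₊, A₁, B₁, φ, R, hE, hφ, hR,
    fun τ w h0 => ?_,
    fun τ => ?_, ?_⟩
  · have h1 := hR' τ w h0
    obtain ⟨Bad, hB, hB'⟩ := grc_bad (t := t) ι {b : Fin M × Fin (n + 1) | ∑ s : Fin q,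
      min 1 (2 * g ((h ^ pos b.1 s) (φ τ))) *
        ∑ a with col a = b.2, G a ((h ^ pos b.1 s) (φ τ)) = y w b}ᶜ
    refine ⟨Bad, hB.trans (Nat.mul_le_mul_left t (Nat.le_floor ?_)), fun b hb s hs => ?_⟩
    · have h2 := ncard_add_ncard_compl {b : Fin M × Fin (n + 1) | ∑ s : Fin q,
        min 1 (2 * g ((h ^ pos b.1 s) (φ τ))) *
          ∑ a with col a = b.2, G a ((h ^ pos b.1 s) (φ τ)) = y w b}
      have h3 := unc_count hU hN1 (φ τ)
      have h4 := hC (φ τ) (q * M)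
      rw [Nat.card_eq_fintype_card, Fintype.card_prod, Fintype.card_fin, Fintype.card_fin] at h2
      rw [Fintype.card_fin] at h1
      rw [hδ, hA]
      exact grc_ar c0 h1 h2 h3 h4 hm hN2
    · refine Eq.trans (congrArg (fun z => r z b.2.2) (funext fun a => ?_))
        (hrj (fun i => w (b.1, b.2.1, i)) b.2.2)
      have h2 := not_not.1 (hB' b hb a)
      rw [mem_ofPred_eq, Finset.sum_eq_single s
        (fun s' _ hs' => by rw [pos_single hU _ _ hs hs']; simp) (by simp)] at h2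
      rw [h2]
      simp only [y, ι.injective.extend_apply, F]
      ring
  · obtain ⟨Off, h1, h2⟩ := off_count hU M (φ τ)
    refine ⟨Off, Nat.le_floor ?_, h2⟩
    have h3 := (Nat.cast_le (α := ℝ)).2 h1
    have h4 := hC (φ τ) (q * M)
    push_cast at h3 h4
    have h5 := mul_le_mul_of_nonneg_left h3 (by positivity : (0 : ℝ) ≤ q)
    have h6 := mul_le_mul_of_nonneg_right hε' (by positivity : (0 : ℝ) ≤ q * M)
    have h7 := mul_le_mul_of_nonneg_right hq1 hC0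
    refine le_of_mul_le_mul_left ?_ (by positivity : (0 : ℝ) < q)
    linarith
  · have h1 := Nat.floor_le (by positivity : (0 : ℝ) ≤ M * δ + A)
    have h2 := Nat.floor_le (by positivity : (0 : ℝ) ≤ (M : ℝ) / 2 + C₀)
    have h3 := mul_le_mul_of_nonneg_left h1 (by positivity : (0 : ℝ) ≤ 4 * t)
    have h4 := mul_le_mul_of_nonneg_right h2 (by positivity : (0 : ℝ) ≤ p)
    have h5 := mul_le_mul_of_nonneg_right ((Nat.cast_le (α := ℝ)).2 hM) hp'.le
    refine (Nat.cast_lt (α := ℝ)).1 ?_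
    push_cast
    linarith

end Vale.Agent.P093
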