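import Vale.Agent.P093Z.Defs

/-! P093Z Sec (TASK). Helper names start with `sec_`. `sec z = (⌊N * arg z / (2 π)⌋ : ℤ)` cast to `ZMod N`. Key: if `arg z' = arg z + θ + 2 π j` with `j : ℤ` (from `Complex.arg_mul_coe_angle`, `Real.Angle.angle_eq_iff_two_pi_dvd_sub`) then `sec z' = ⌊N * arg z / (2 π) + N * θ / (2 π)⌋` in `ZMod N`. For `zeta N` take `θ = 2 π / N` (`Complex.arg_exp_mul_I` or `Complex.arg_cos_add_sin_mul_I`). For `w = z' / z` with `‖w - 1‖ < 1 / 4`: `0 < w.re`, `|sin (arg w)| = |w.im| / ‖w‖ ≤ 1 / 3`, so `|arg w| ≤ π / 6` (`Real.mul_abs_le_abs_sin`, `Complex.abs_arg_le_pi_div_two_iff`); the difference `d` of the floors has `|d| ≤ N / 12 + 1 < N / 4`, and `|(d : ZMod N).valMinAbs| ≤ |d|` (`ZMod.natAbs_min_of_le_div_two` or `ZMod.valMinAbs_spec`). -/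

open Filter Topology Set

noncomputable section

namespace Vale.Agent.P093

theorem sec_eq (N : ℕ) : zeta N = Complex.exp ((2 * Real.pi / N : ℝ) * Complex.I) := by
  rw [zeta]
  congr 1
  push_cast
  ring

theorem zeta_norm (N : ℕ) : ‖zeta N‖ = 1 := by
  rw [sec_eq, Complex.norm_exp_ofReal_mul_I]

theorem zeta_pow {N : ℕ} (hN : 0 < N) : zeta N ^ N = 1 := by
  rw [zeta, ← Complex.exp_nat_mul, mul_div_cancel₀ _ (Nat.cast_ne_zero.2 hN.ne'),
    Complex.exp_two_pi_mul_I]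

theorem zeta_sub {N : ℕ} (hN : 0 < N) : ‖zeta N - 1‖ ≤ 7 / N := by
  rw [sec_eq, mul_comm _ Complex.I]
  refine Real.norm_exp_I_mul_ofReal_sub_one_le.trans ?_
  rw [Real.norm_eq_abs, abs_of_nonneg (by positivity)]
  have := Real.pi_lt_d2
  gcongr
  linarith

theorem sec_key (N : ℕ) {w z : ℂ} (hw : w ≠ 0) (hz : z ≠ 0) :
    ((⌊N * (w * z).arg / (2 * Real.pi)⌋ : ℤ) : ZMod N) =
      (⌊N * z.arg / (2 * Real.pi) + N * w.arg / (2 * Real.pi)⌋ : ℤ) := by
  have h := Complex.arg_mul_coe_angle hw hz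
  rw [← Real.Angle.coe_add, Real.Angle.angle_eq_iff_two_pi_dvd_sub] at h
  obtain ⟨j, hj⟩ := h
  have h1 : N * (w * z).arg / (2 * Real.pi) =
      N * z.arg / (2 * Real.pi) + N * w.arg / (2 * Real.pi) + ((N * j : ℤ) : ℝ) := by
    rw [sub_eq_iff_eq_add.1 hj]
    have := Real.pi_ne_zero
    push_cast
    field_simp
    ring
  rw [h1, Int.floor_add_intCast]
  simp

theorem sec_arg {w : ℂ} (h : ‖w - 1‖ < 1 / 4) : |w.arg| ≤ Real.pi / 6 := by
  have h1 : |w.re - 1| < 1 / 4 := (Complex.abs_re_le_norm (w - 1)).trans_lt h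
  have h2 : |w.im| < 1 / 4 := by simpa using (Complex.abs_im_le_norm (w - 1)).trans_lt h
  have h3 : 3 / 4 < w.re := by linarith [(abs_lt.1 h1).1]
  have h4 : 3 / 4 < ‖w‖ := h3.trans_le (Complex.re_le_norm w)
  have h5 := Real.mul_abs_le_abs_sin (Complex.abs_arg_le_pi_div_two_iff.2 (by linarith : 0 ≤ w.re))
  rw [Complex.sin_arg, abs_div, abs_norm] at h5
  have h6 : |w.im| / ‖w‖ ≤ 1 / 3 := by
    rw [div_le_iff₀ (by linarith)]
    linarith
  have h7 := h5.trans h6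
  rw [div_mul_eq_mul_div, div_le_iff₀ Real.pi_pos] at h7
  linarith

theorem exists_sec (N : ℕ) [NeZero N] (hN : 16 ≤ N) : ∃ sec : ℂ → ZMod N,
    (∀ z ≠ 0, sec (zeta N * z) = sec z + 1) ∧
      ∀ z z', ‖z' - z‖ * 4 < ‖z‖ → |(sec z' - sec z).valMinAbs| * 4 < N := by
  have hN' : (16 : ℝ) ≤ N := by exact_mod_cast hN
  have hp := Real.pi_pos
  refine ⟨fun z => ((⌊N * z.arg / (2 * Real.pi)⌋ : ℤ) : ZMod N), fun z hz => ?_, fun z z' h => ?_⟩
  · have h1 : (zeta N).arg = 2 * Real.pi / N := by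
      rw [sec_eq, Complex.exp_mul_I, Complex.arg_cos_add_sin_mul_I]
      refine ⟨lt_of_lt_of_le (by linarith) (by positivity : (0 : ℝ) ≤ _), ?_⟩
      rw [div_le_iff₀ (by linarith)]
      nlinarith
    have h2 : (N : ℝ) * (2 * Real.pi / N) / (2 * Real.pi) = 1 := by field_simp
    beta_reduce
    rw [sec_key N (norm_ne_zero_iff.1 (by rw [zeta_norm]; exact one_ne_zero)) hz, h1, h2,
      Int.floor_add_one]
    simp
  · have z0 : 0 < ‖z‖ := lt_of_le_of_lt (by positivity) h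
    have hz := norm_pos_iff.1 z0
    have h1 : ‖z' / z - 1‖ < 1 / 4 := by
      rw [div_sub_one hz, norm_div, div_lt_iff₀ z0]
      linarith
    have h2 : z' / z ≠ 0 := fun k => by
      rw [k] at h1
      norm_num at h1
    have h3 := abs_le.1 (sec_arg h1)
    have h4 := sec_key N h2 hz
    rw [div_mul_cancel₀ _ hz] at h4
    beta_reduce
    rw [h4, ← Int.cast_sub]
    set a := N * z.arg / (2 * Real.pi)
    set b := N * (z' / z).arg / (2 * Real.pi) with hb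
    have h5 : b ≤ N / 12 := by
      rw [hb, div_le_iff₀ (by positivity)]
      nlinarith
    have h6 : -(N / 12) ≤ b := by
      rw [hb, le_div_iff₀ (by positivity)]
      nlinarith
    have h7 : |⌊a + b⌋ - ⌊a⌋| * 4 < N := by
      have : ((|⌊a + b⌋ - ⌊a⌋| * 4 : ℤ) : ℝ) < (N : ℤ) := by
        push_cast
        have : |(⌊a + b⌋ : ℝ) - ⌊a⌋| ≤ N / 12 + 1 := abs_le.2 ⟨by
          linarith [Int.floor_le a, Int.lt_floor_add_one (a + b)], by
          linarith [Int.floor_le (a + b), Int.lt_floor_add_one a]⟩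
        linarith
      exact_mod_cast this
    have h8 : ((⌊a + b⌋ - ⌊a⌋ : ℤ) : ZMod N).valMinAbs = ⌊a + b⌋ - ⌊a⌋ := by
      rw [ZMod.valMinAbs_spec]
      have := abs_le.1 (le_refl |⌊a + b⌋ - ⌊a⌋|)
      refine ⟨rfl, ?_, ?_⟩ <;> omega
    rwa [h8]

end Vale.Agent.P093
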