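import Vale.Agent.P093Z.Geo

/-! P093Z Sgn (TASK). Helper names start with `sgn_`. `sgn_s` is a port of `blk_r` in `P093E/Blk.lean`. `sgn_r`: `sec (zeta N ^ j * z) = sec z + j` for `z ≠ 0`; `r k y = sec (F y.1 y.2.1 k)` if this value of `F` is not zero (the condition is invariant), else `∑ b, w k b * sec (y.2.1 (pick b y.2.1))` where `pick b x = Classical.epsilon fun i => Sum.elim fac id i = b ∧ x i ≠ 0` (the predicate is unchanged by `rot fac a (zeta N)`; `Nonempty` from `inr b`). Use `zT_val`, `zeta_norm`. -/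

open Filter Topology Set

noncomputable section

namespace Vale.Agent.P093

variable {C : Type} [Fintype C] [DecidableEq C] {n : ℕ} {fac : Fin n → C}

theorem sgn_ne (N : ℕ) : zeta N ≠ 0 := Complex.exp_ne_zero _

theorem sgn_pow {N : ℕ} (sec : ℂ → ZMod N) (hsec : ∀ z ≠ 0, sec (zeta N * z) = sec z + 1)
    (j : ℕ) {z : ℂ} (hz : z ≠ 0) : sec (zeta N ^ j * z) = sec z + (j : ZMod N) := by
  induction j with
  | zero => rw [pow_zero, one_mul, Nat.cast_zero, add_zero]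
  | succ j ih =>
    rw [pow_succ', mul_assoc, hsec _ (mul_ne_zero (pow_ne_zero j (sgn_ne N)) hz), ih,
      Nat.cast_succ, add_assoc]

omit [Fintype C] in
theorem sgn_pick {N : ℕ} (sec : ℂ → ZMod N) (hsec : ∀ z ≠ 0, sec (zeta N * z) = sec z + 1)
    (b : C) : ∃ u : {y // zNZ fac y} → ZMod N,
      ∀ a y, u (zT N a y) = u y + if b = a then 1 else 0 := by
  classical
  have : Nonempty (Fin n ⊕ C) := ⟨.inr b⟩
  let pick : (Fin n ⊕ C → ℂ) → Fin n ⊕ C := fun x =>
    Classical.epsilon fun i => Sum.elim fac id i = b ∧ x i ≠ 0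
  refine ⟨fun y => sec (y.1 (pick y.1)), fun a y => ?_⟩
  have e : pick (rot fac a (zeta N) y.1) = pick y.1 := by
    refine congrArg Classical.epsilon (funext fun i => propext (and_congr_right fun _ => ?_))
    simp only [rot]
    split_ifs
    · exact ⟨fun h h' => h (by rw [h', mul_zero]), fun h => mul_ne_zero (sgn_ne N) h⟩
    · rfl
  have h : Sum.elim fac id (pick y.1) = b ∧ y.1 (pick y.1) ≠ 0 :=
    Classical.epsilon_spec (p := fun i => Sum.elim fac id i = b ∧ y.1 i ≠ 0) (y.2 b)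
  show sec ((zT N a y).1 (pick (zT N a y).1)) = sec (y.1 (pick y.1)) + _
  rw [zT_val, e]
  simp only [rot, h.1]
  split_ifs
  · exact hsec _ h.2
  · rw [add_zero]

theorem sgn_r {X : Type} {N : ℕ} (sec : ℂ → ZMod N)
    (hsec : ∀ z ≠ 0, sec (zeta N * z) = sec z + 1) (F : X → (Fin n ⊕ C → ℂ) → Fin n → ℂ)
    (w : Fin n → C → ℕ)
    (h1 : ∀ k a x y, F x (rot fac a (zeta N) y) k = zeta N ^ w k a * F x y k) :
    ∃ r : Fin n → X × {y // zNZ fac y} → ZMod N,
      (∀ k a y, r k (y.1, zT N a y.2) = r k y + (w k a : ZMod N)) ∧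
      ∀ k y, F y.1 y.2.1 k ≠ 0 → r k y = sec (F y.1 y.2.1 k) := by
  classical
  choose u hu using fun b => sgn_pick (fac := fac) sec hsec b
  refine ⟨fun k y => if F y.1 y.2.1 k ≠ 0 then sec (F y.1 y.2.1 k)
    else ∑ b, (w k b : ZMod N) * u b y.2, fun k a y => ?_, fun k y h => if_pos h⟩
  simp only [zT_val, h1]
  by_cases h : F y.1 y.2.1 k = 0
  · have h' : ¬ zeta N ^ w k a * F y.1 y.2.1 k ≠ 0 := fun h' => h' (by rw [h, mul_zero])
    rw [if_neg h', if_neg (not_not.2 h)]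
    simp only [hu, mul_add, Finset.sum_add_distrib, mul_ite, mul_one, mul_zero,
      Finset.sum_ite_eq', Finset.mem_univ, if_true]
  · rw [if_pos (mul_ne_zero (pow_ne_zero _ (sgn_ne N)) h), if_pos h, sgn_pow sec hsec _ h]

omit [Fintype C] in
theorem sgn_s {X K : Type} [CommRing K] {m : ℕ} {A B : Fin m → Set X}
    (hD : ∀ i, ∀ a ∈ A i, a ∉ B i) (N : ℕ) (R : X → (Fin n ⊕ C → ℂ) → Fin m → ℝ)
    (r0 : ∀ a x y, R x (rot fac a (zeta N) y) = R x y)
    (r1 : ∀ i, ∀ x ∈ A i, ∀ y, R x y i ≤ 0) (r2 : ∀ i, ∀ x ∈ B i, ∀ y, 0 ≤ R x y i) :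
    ∃ s : ℕ → X × {y // zNZ fac y} → K, (∀ (i : Fin m) y, y.1 ∈ A i → s i.rev y = 0) ∧
      (∀ (i : Fin m) y, y.1 ∈ B i → s i.rev y = 1) ∧
      (∀ k < m, ∀ a y, s k (y.1, zT N a y.2) = s k y) ∧
      (∀ (i : Fin m) y, 0 < R y.1 y.2.1 i → s i.rev y = 1) ∧
      ∀ (i : Fin m) y, R y.1 y.2.1 i < 0 → s i.rev y = 0 := by
  classical
  let u : Fin m → X × {y // zNZ fac y} → K := fun i y =>
    if 0 < R y.1 y.2.1 i then 1 else if R y.1 y.2.1 i < 0 then 0 else if y.1 ∈ B i then 1 else 0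
  let s : ℕ → X × {y // zNZ fac y} → K := fun k =>
    if h : k < m then u (Fin.rev ⟨k, h⟩) else 0
  have e : ∀ i : Fin m, s i.rev = u i := fun i => by
    simp only [s, dif_pos i.rev.2, Fin.eta, Fin.rev_rev]
  refine ⟨s, fun i y h => ?_, fun i y h => ?_, fun k hk a y => ?_, fun i y h => ?_,
    fun i y h => ?_⟩
  · rw [e]
    simp only [u, if_neg (r1 i _ h _).not_gt, if_neg (hD i _ h), ite_self]
  · rw [e]
    simp only [u, if_neg (r2 i _ h _).not_gt, if_pos h, ite_self]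
  · simp only [s, dif_pos hk, u, zT_val, r0]
  · rw [e]
    exact if_pos h
  · rw [e]
    exact (if_neg h.not_gt).trans (if_pos h)

end Vale.Agent.P093
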